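import Vale.Agent.Lib.P062.Data.All

open Vale.Agent.Lib.P062 Vale.Agent.Lib.P062.Data

theorem Vale.Agent.Results.P062.CloseReplies.result :
    ∃ n : ℕ, ∀ r : Cell, 2 < r.1 ^ 2 + r.2 ^ 2 → MakerForces n {((0 : ℤ), (0 : ℤ))} {r} := by
  have hU : ∀ U ∈ far_U :: [c50_U, c41_U, c40_U, c33_U, c32_U, c31_U, c30_U, c22_U, c21_U, c20_U], ∃ n, ∀ B : Set Cell, Avoids B U →
      MakerForces n (cellsOf (1 <<< 429)) B := by
    intro U hU
    simp only [List.mem_cons, List.not_mem_nil, or_false] at hU
    rcases hU with rfl | rfl | rfl | rfl | rfl | rfl | rfl | rfl | rfl | rfl | rfl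
    · exact far_win
    · exact c50_win
    · exact c41_win
    · exact c40_win
    · exact c33_win
    · exact c32_win
    · exact c31_win
    · exact c30_win
    · exact c22_win
    · exact c21_win
    · exact c20_win
  exact replies_at_origin 429 far_U [c50_U, c41_U, c40_U, c33_U, c32_U, c31_U, c30_U, c22_U, c21_U, c20_U] 1024 2 hU (by decide +kernel) (by decide +kernel)
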