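import Vale.Agent.Lib.P062.Data.o1_top
import Vale.Agent.Lib.P062.Symmetry

open Vale.Agent.Lib.P062 Vale.Agent.Lib.P062.Data

private theorem bit_not_mem (k m : ℕ) (h : m.testBit k = false) : decode k ∉ cellsOf m := by
  rintro ⟨j, hj, e⟩
  have := decode_injective e
  subst this
  simp [h] at hj

private theorem cellsOf_lor' (a b : ℕ) : cellsOf (a ||| b) = cellsOf a ∪ cellsOf b := by
  ext c
  exact mem_cellsOf_lor

private theorem d429 : decode 429 = ((13 : ℤ), (13 : ℤ)) := rfl
private theorem d428 : decode 428 = ((12 : ℤ), (13 : ℤ)) := rfl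
private theorem d427 : decode 427 = ((11 : ℤ), (13 : ℤ)) := rfl
private theorem d426 : decode 426 = ((10 : ℤ), (13 : ℤ)) := rfl
private theorem d430 : decode 430 = ((14 : ℤ), (13 : ℤ)) := rfl
private theorem d460 : decode 460 = ((12 : ℤ), (14 : ℤ)) := rfl
private theorem d396 : decode 396 = ((12 : ℤ), (12 : ℤ)) := rfl

private theorem line3 : ∃ n : ℕ, ∀ r : Cell, r ≠ (-3, 0) →
    MakerForces n {((0 : ℤ), (0 : ℤ)), (-1, 0), (-2, 0)} {r, (1, 0), (-1, 1)} := by
  obtain ⟨n, hn⟩ := o1_L3
  refine ⟨n, fun r hr => ?_⟩
  have e1 : (nat_lit 2426085982355713002131112411125198240506882440953839503274169633037793644329922420159977605341122130835217309591228125350352388096) = 1 <<< 429 ||| (1 <<< 428 ||| 1 <<< 427) := by decide +kernel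
  have e2 : (nat_lit 173291855882550928723650886508942731464777317210988535948154973788413831737851601439998400381508723631086950685087723239310884864) = 1 <<< 426 := by decide +kernel
  rw [e1, e2] at hn
  have h1 := hn {decode 430, decode 460} (r + decode 429) (by
      rintro d (rfl | rfl)
      · exact bit_not_mem _ _ (by decide +kernel)
      · exact bit_not_mem _ _ (by decide +kernel)) (by
      rw [cellsOf_bit, Set.mem_singleton_iff]
      intro h
      apply hr
      rw [d429, d426] at h
      have h1 := congrArg Prod.fst h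
      have h2 := congrArg Prod.snd h
      simp only [Prod.fst_add, Prod.snd_add] at h1 h2
      exact Prod.ext (by simp; omega) (by simp; omega))
  have h2 := forces_translate (-decode 429) h1
  rw [cellsOf_lor', cellsOf_lor', cellsOf_bit, cellsOf_bit, cellsOf_bit] at h2
  have e3 : (fun c : Cell => c + -decode 429) '' ({decode 429} ∪ ({decode 428} ∪ {decode 427}))
      = {((0 : ℤ), (0 : ℤ)), (-1, 0), (-2, 0)} := by
    rw [Set.image_union, Set.image_union, Set.image_singleton, Set.image_singleton, Set.image_singleton]
    rw [d429, d428, d427]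
    ext c
    simp
    tauto
  have e4 : (fun c : Cell => c + -decode 429) '' (insert (r + decode 429) {decode 430, decode 460})
      = {r, (1, 0), (-1, 1)} := by
    rw [Set.image_insert_eq, Set.image_pair, add_neg_cancel_right, d429, d430, d460]
    congr 2
  rw [e3, e4] at h2
  exact h2

private theorem line2 : ∃ n : ℕ, ∀ r : Cell, r ≠ (-1, 1) → r ≠ (-1, -1) →
    MakerForces n {((0 : ℤ), (0 : ℤ)), (-1, 0)} {r, (1, 0)} := by
  obtain ⟨n, hn⟩ := o1_L2
  refine ⟨n, fun r hr hr' => ?_⟩
  have e1 : (nat_lit 2079502270590611144683810638107312777577327806531862431377859685460965980854219217279980804578104683573043408221052678871730618368) = 1 <<< 429 ||| 1 <<< 428 := by decide +kernel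
  have e2 : (nat_lit 2977131414714805823851420934489698359566009961625443017058590467895724993664394103727869020099628139201236123079274879280501676519102349312) = 1 <<< 460 ||| 1 <<< 396 := by decide +kernel
  rw [e1, e2] at hn
  have h1 := hn {decode 430} (r + decode 429) (by
      rintro d rfl
      exact bit_not_mem _ _ (by decide +kernel)) (by
      rw [cellsOf_lor', cellsOf_bit, cellsOf_bit]
      rintro (h | h)
      · apply hr
        rw [Set.mem_singleton_iff, d429, d460] at h
        have h1 := congrArg Prod.fst h
        have h2 := congrArg Prod.snd h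
        simp only [Prod.fst_add, Prod.snd_add] at h1 h2
        exact Prod.ext (by simp; omega) (by simp; omega)
      · apply hr'
        rw [Set.mem_singleton_iff, d429, d396] at h
        have h1 := congrArg Prod.fst h
        have h2 := congrArg Prod.snd h
        simp only [Prod.fst_add, Prod.snd_add] at h1 h2
        exact Prod.ext (by simp; omega) (by simp; omega))
  have h2 := forces_translate (-decode 429) h1
  rw [cellsOf_lor', cellsOf_bit, cellsOf_bit] at h2
  have e3 : (fun c : Cell => c + -decode 429) '' ({decode 429} ∪ {decode 428})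
      = {((0 : ℤ), (0 : ℤ)), (-1, 0)} := by
    rw [Set.image_union, Set.image_singleton, Set.image_singleton]
    rw [d429, d428]
    ext c
    simp
    tauto
  have e4 : (fun c : Cell => c + -decode 429) '' (insert (r + decode 429) {decode 430})
      = {r, (1, 0)} := by
    rw [Set.image_insert_eq, Set.image_singleton, add_neg_cancel_right, d429, d430]
    congr 2
  rw [e3, e4] at h2
  exact h2

theorem Vale.Agent.Results.P062.SingleLine.result :
    ∃ n : ℕ,
      (∀ r : Cell, r ≠ (-1, 1) → r ≠ (-1, -1) →
        MakerForces n {((0 : ℤ), (0 : ℤ)), (-1, 0)} {r, (1, 0)}) ∧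
      (∀ r : Cell, r ≠ (-3, 0) →
        MakerForces n {((0 : ℤ), (0 : ℤ)), (-1, 0), (-2, 0)} {r, (1, 0), (-1, 1)}) := by
  obtain ⟨a, ha⟩ := line2
  obtain ⟨b, hb⟩ := line3
  exact ⟨max a b, fun r h1 h2 => makerForces_mono (le_max_left _ _) (ha r h1 h2),
    fun r h1 => makerForces_mono (le_max_right _ _) (hb r h1)⟩
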